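import Vale.Agent.Lib.P254.NearCube

/-!
# P254 (strong isotropic constant conjecture): sets that fill a large part of a cube

For `K ⊆ ℝ^n` (real functions on a finite index type), `cov K` is the covariance matrix of the
uniform distribution on `K` and `isoPow K = det (cov K) / (vol K)^2` is the power `2n` of the
isotropic constant of `K`; `simplexPow n` is its value on the `n`-simplex.

* If `K` is a measurable subset of positive volume of a cube of side `s`, then
  `isoPow K ≤ (s^n / vol K)^(n+2) / 12^n`; hence `isoPow K ≤ simplexPow n` as soon as the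
  power `n + 2` of `s^n / vol K` is at most `12^n * simplexPow n`.
* `12^n * simplexPow n ≥ 1`, with strict inequality for `n ≥ 2`.
* `isoPow` is invariant under invertible affine maps.
-/

namespace Vale.Agent.Results.P254.CubeNeighbourhood

open Vale.Agent.Lib.P254

theorem result :
    (∀ (ι : Type) [Fintype ι] [DecidableEq ι] [Nonempty ι] (a : ι → ℝ) (s : ℝ)
      (K : Set (ι → ℝ)),
      0 < s → MeasurableSet K → K ⊆ Set.Icc a (fun j => a j + s) → 0 < vol K →
      isoPow K ≤ (s ^ Fintype.card ι / vol K) ^ (Fintype.card ι + 2) / 12 ^ Fintype.card ι ∧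
      ((s ^ Fintype.card ι / vol K) ^ (Fintype.card ι + 2)
          ≤ 12 ^ Fintype.card ι * simplexPow (Fintype.card ι) →
        isoPow K ≤ simplexPow (Fintype.card ι))) ∧
    (∀ n : ℕ, 1 ≤ 12 ^ n * simplexPow n ∧ (2 ≤ n → 1 < 12 ^ n * simplexPow n)) ∧
    (∀ (ι : Type) [Fintype ι] [DecidableEq ι] (F : Matrix ι ι ℝ) (c : ι → ℝ)
      (S : Set (ι → ℝ)), F.det ≠ 0 → MeasurableSet S → Bornology.IsBounded S → vol S ≠ 0 →
      isoPow ((fun x : ι → ℝ => c + F.mulVec x) '' S) = isoPow S) := by
  refine ⟨?_, twelve_pow_simplexPow, fun ι _ _ F c S hF hS hb hV => isoPow_aff hF c hS hb hV⟩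
  intro ι _ _ _ a s K hs hKm hKQ hV
  have h := isoPow_le_cube a hs hKm hKQ hV
  refine ⟨h, fun hle => h.trans ?_⟩
  rw [div_le_iff₀ (by positivity)]
  calc (s ^ Fintype.card ι / vol K) ^ (Fintype.card ι + 2)
      ≤ 12 ^ Fintype.card ι * simplexPow (Fintype.card ι) := hle
    _ = simplexPow (Fintype.card ι) * 12 ^ Fintype.card ι := by ring

end Vale.Agent.Results.P254.CubeNeighbourhood
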