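import Vale.Agent.Results.P254.Combined
import Vale.Agent.Results.P254.CubeNeighbourhood

/-!
# P254 (strong isotropic constant conjecture): a family of polytopes and sets close to cubes

The conjunction of the statements of the hand-ins `Combined` and `CubeNeighbourhood`:
the value of `isoPow` on simplices; the inequality `isoPow K ≤ simplexPow n` with its equality
case on the family `Good` (polytopes with at most `n + 2` vertices, closed under products,
free sums, cones and invertible affine maps); the bound of `isoPow` for measurable subsets of a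
cube, with the resulting inequality for sets that fill a large part of a cube; and the affine
invariance of `isoPow`.
-/

namespace Vale.Agent.Results.P254.AUnion

open Vale.Agent.Lib.P254

theorem result :
    (∀ (ι : Type) [Fintype ι] [DecidableEq ι] (p : Fin (Fintype.card ι + 1) → ι → ℝ),
      AffineIndependent ℝ p →
      isoPow (convexHull ℝ (Set.range p)) = simplexPow (Fintype.card ι)) ∧
    (∀ (ι : Type) [Fintype ι] [DecidableEq ι] (K : Set (ι → ℝ)), Good K →
      (IsCompact K ∧ Convex ℝ K ∧ (interior K).Nonempty) ∧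
      isoPow K ≤ simplexPow (Fintype.card ι) ∧
      (isoPow K = simplexPow (Fintype.card ι) ↔
        ∃ p : Fin (Fintype.card ι + 1) → ι → ℝ, AffineIndependent ℝ p ∧
          K = convexHull ℝ (Set.range p))) ∧
    (∀ (ι : Type) [Fintype ι] [DecidableEq ι] [Nonempty ι] (a : ι → ℝ) (s : ℝ)
      (K : Set (ι → ℝ)),
      0 < s → MeasurableSet K → K ⊆ Set.Icc a (fun j => a j + s) → 0 < vol K →
      isoPow K ≤ (s ^ Fintype.card ι / vol K) ^ (Fintype.card ι + 2) / 12 ^ Fintype.card ι ∧
      ((s ^ Fintype.card ι / vol K) ^ (Fintype.card ι + 2)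
          ≤ 12 ^ Fintype.card ι * simplexPow (Fintype.card ι) →
        isoPow K ≤ simplexPow (Fintype.card ι))) ∧
    (∀ n : ℕ, 1 ≤ 12 ^ n * simplexPow n ∧ (2 ≤ n → 1 < 12 ^ n * simplexPow n)) ∧
    (∀ (ι : Type) [Fintype ι] [DecidableEq ι] (F : Matrix ι ι ℝ) (c : ι → ℝ)
      (S : Set (ι → ℝ)), F.det ≠ 0 → MeasurableSet S → Bornology.IsBounded S → vol S ≠ 0 →
      isoPow ((fun x : ι → ℝ => c + F.mulVec x) '' S) = isoPow S) := by
  obtain ⟨n1, n2, n3⟩ := Vale.Agent.Results.P254.CubeNeighbourhood.result
  exact ⟨fun ι _ _ => (Vale.Agent.Results.P254.Combined.result (ι := ι)).1,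
    fun ι _ _ => (Vale.Agent.Results.P254.Combined.result (ι := ι)).2, n1, n2, n3⟩

end Vale.Agent.Results.P254.AUnion
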