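import Vale.Agent.Lib.P254.Class

/-!
# P254 (strong isotropic constant conjecture): a family of bodies closed under products,
free sums, cones and affine maps

`isoPow S = det (cov S) / (vol S)^2` is the `2n`-th power of the isotropic constant `L_S` of
`S ⊆ ℝ^n`, where `ℝ^n` is the space of real functions on an index type `ι` with `n` elements, and
`simplexPow n` is an explicit number.

* Every `n`-simplex (the convex hull of `n + 1` affinely independent points of `ℝ^n`) has
  `isoPow = simplexPow n`.
* `Good` is the smallest family of sets that contains the convex hull of every finite set of at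
  most `n + 2` points of `ℝ^n` with nonempty interior and is closed under Cartesian products,
  free sums of two members containing the origin in their interiors, closed cones, and
  invertible affine maps.  Every member `K` of the family is a convex body (compact, convex,
  nonempty interior), satisfies `isoPow K ≤ simplexPow n`, that is `L_K ≤ L_simplex`, and equality
  holds if and only if `K` is an `n`-simplex.
-/

namespace Vale.Agent.Results.P254.Combined

open Vale.Agent.Lib.P254

theorem result {ι : Type} [Fintype ι] [DecidableEq ι] :
    (∀ p : Fin (Fintype.card ι + 1) → ι → ℝ, AffineIndependent ℝ p →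
      isoPow (convexHull ℝ (Set.range p)) = simplexPow (Fintype.card ι)) ∧
    (∀ K : Set (ι → ℝ), Good K →
      (IsCompact K ∧ Convex ℝ K ∧ (interior K).Nonempty) ∧
      isoPow K ≤ simplexPow (Fintype.card ι) ∧
      (isoPow K = simplexPow (Fintype.card ι) ↔
        ∃ p : Fin (Fintype.card ι + 1) → ι → ℝ, AffineIndependent ℝ p ∧
          K = convexHull ℝ (Set.range p))) := by
  refine ⟨fun p hp => isoPow_simplex p hp, fun K hK => ?_⟩
  obtain ⟨hc, hv, hp, hle, heq⟩ := good_main hK
  refine ⟨⟨hc, hv, interior_nonempty_of_vol_pos hv hp⟩, hle, heq, ?_⟩
  rintro ⟨p, hp', rfl⟩
  exact isoPow_simplex p hp'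

end Vale.Agent.Results.P254.Combined
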