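import Vale.Agent.Lib.P254.Cone

/-!
# P254 (strong isotropic constant conjecture): cones and prisms

`isoPow S = det (cov S) / (vol S)^2` is the `2n`-th power of the isotropic constant `L_S` of
`S ⊆ ℝ^n` (`n = card ι`).  For bounded measurable `B, T ⊆ ℝ^ι` of positive volume, with
`cone B = {(t p, t) : p ∈ B, 0 < t ≤ 1}` and `prism B = B × [0,1]` in `ℝ^(ι ⊕ Unit)`:

* `L_{cone B}^{2(n+1)} = c_n L_B^{2n}`, `c_n = (n+1)^(n+3) / ((n+2)^2 (n+3)^(n+1))`;
* hence the ratio to any reference body `T` is preserved by taking cones, and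
  `L_B ≤ L_T ↔ L_{cone B} ≤ L_{cone T}`, with equality exactly when `L_B = L_T`;
* `L_{prism B}^{2(n+1)} = L_B^{2n} / 12`, which is strictly below `L_{cone T}^{2(n+1)}`
  whenever `n ≥ 1` and `L_B ≤ L_T`.

The last two clauses say that `cone B` and `prism B` again satisfy the hypotheses, so the
theorem can be iterated in all dimensions.

Taking `T` an `n`-simplex (then `cone T` is a simplex of dimension n+1 minus its apex), this says that
the class of bodies satisfying the strong isotropic constant conjecture is closed under taking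
cones (equality cases preserved) and prisms (always strict).
-/

namespace Vale.Agent.Results.P254.ConesAndPrisms

open Vale.Agent.Lib.P254

theorem result {ι : Type*} [Fintype ι] [DecidableEq ι] (B T : Set (ι → ℝ))
    (hB : MeasurableSet B) (hBb : Bornology.IsBounded B) (hBv : 0 < vol B)
    (hT : MeasurableSet T) (hTb : Bornology.IsBounded T) (hTv : 0 < vol T) :
    isoPow (cone B) = coneConst (Fintype.card ι) * isoPow B ∧
    isoPow (cone B) * isoPow T = isoPow (cone T) * isoPow B ∧
    (isoPow (cone B) ≤ isoPow (cone T) ↔ isoPow B ≤ isoPow T) ∧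
    (isoPow (cone B) = isoPow (cone T) ↔ isoPow B = isoPow T) ∧
    isoPow (prism B) = isoPow B / 12 ∧
    (1 ≤ Fintype.card ι → 0 < isoPow T → isoPow B ≤ isoPow T →
      isoPow (prism B) < isoPow (cone T)) ∧
    (MeasurableSet (cone B) ∧ Bornology.IsBounded (cone B) ∧ 0 < vol (cone B)) ∧
    (MeasurableSet (prism B) ∧ Bornology.IsBounded (prism B) ∧ 0 < vol (prism B)) := by
  have hcB := isoPow_cone hB hBb hBv
  have hcT := isoPow_cone hT hTb hTv
  have hc := coneConst_pos (Fintype.card ι)
  have hpB := isoPow_prism hBb hBv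
  refine ⟨hcB, ?_, ?_, ?_, hpB, ?_,
    ⟨measurableSet_cone hB, isBounded_cone hBb, cone_vol_pos hB hBb hBv⟩,
    ⟨measurableSet_prism hB, isBounded_prism hBb, prism_vol_pos hBv⟩⟩
  · rw [hcB, hcT]; ring
  · rw [hcB, hcT]
    exact mul_le_mul_iff_right₀ hc
  · rw [hcB, hcT]
    constructor
    · intro h
      exact mul_left_cancel₀ hc.ne' h
    · intro h
      rw [h]
  · intro hn hTpos hle
    rw [hpB, hcT]
    have hgt := coneConst_gt (Fintype.card ι) hn
    calc isoPow B / 12 ≤ isoPow T / 12 := by linarith
      _ = 1 / 12 * isoPow T := by ring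
      _ < coneConst (Fintype.card ι) * isoPow T := by
          exact mul_lt_mul_of_pos_right hgt hTpos

end Vale.Agent.Results.P254.ConesAndPrisms
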