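import Vale.Agent.Lib.P254.FewVertices

/-!
# P254 (strong isotropic constant conjecture): polytopes with at most `n + 2` vertices

`isoPow S = det (cov S) / (vol S)^2` is the `2n`-th power of the isotropic constant `L_S` of
`S ⊆ ℝ^n`, where `ℝ^n` is the space of real functions on an index type `ι` with `n` elements.

* Every `n`-simplex (the convex hull of `n + 1` affinely independent points of `ℝ^n`) has
  `isoPow = simplexPow n`, an explicit number; so `simplexPow n` is the `2n`-th power of the
  isotropic constant of the `n`-simplex.
* If `V ⊆ ℝ^n` is a finite set with at most `n + 2` points whose convex hull `K` has nonempty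
  interior, then `isoPow K ≤ simplexPow n`, that is `L_K ≤ L_simplex`, and equality holds if and
  only if `K` is an `n`-simplex.

So the strong isotropic constant conjecture, with its equality case, holds for all polytopes with
at most `n + 2` vertices, in every dimension.
-/

namespace Vale.Agent.Results.P254.FewVertices

open Vale.Agent.Lib.P254

theorem result {ι : Type*} [Fintype ι] [DecidableEq ι] :
    (∀ p : Fin (Fintype.card ι + 1) → ι → ℝ, AffineIndependent ℝ p →
      isoPow (convexHull ℝ (Set.range p)) = simplexPow (Fintype.card ι)) ∧
    (∀ V : Finset (ι → ℝ), V.card ≤ Fintype.card ι + 2 →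
      (interior (convexHull ℝ (V : Set (ι → ℝ)))).Nonempty →
      isoPow (convexHull ℝ (V : Set (ι → ℝ))) ≤ simplexPow (Fintype.card ι) ∧
      (isoPow (convexHull ℝ (V : Set (ι → ℝ))) = simplexPow (Fintype.card ι) ↔
        ∃ p : Fin (Fintype.card ι + 1) → ι → ℝ, AffineIndependent ℝ p ∧
          convexHull ℝ (V : Set (ι → ℝ)) = convexHull ℝ (Set.range p))) :=
  ⟨fun p hp => isoPow_simplex p hp, fun V hV hint => few_vertices V hV hint⟩

end Vale.Agent.Results.P254.FewVertices
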