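import Vale.Agent.Lib.P254.FreeSum

/-!
# P254 (strong isotropic constant conjecture): free sums

`isoPow S = det (cov S) / (vol S)^2` is the `2n`-th power of the isotropic constant `L_S` of
`S ⊆ ℝ^n`.  Let `A ⊆ ℝ^ι` and `B ⊆ ℝ^κ` (`k = card ι ≥ 1`, `l = card κ ≥ 1`) be compact, star-shaped
about the origin and of positive volume, and let
`freeSum A B = {((1 - t) a, t b) : a ∈ A, b ∈ B, 0 ≤ t ≤ 1} ⊆ ℝ^(ι ⊕ κ)`; for convex `A`, `B` this
is the convex hull of `A × 0 ∪ 0 × B`.  With `mah S` the squared Mahalanobis distance from the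
origin (the gluing point) to the centroid of `S`:

* an exact formula for `L^(2(k+l))` of the free sum in terms of `L_A^(2k)`, `L_B^(2l)`, `mah A`
  and `mah B`;
* `mah A ≤ k (k + 2)`, strictly if `A` is convex with the origin in its interior;
* hence `isoPow (freeSum A B) ≤ fsMax k l * (isoPow A * isoPow B)`, with equality exactly when
  `mah A = k (k + 2)` or `mah B = l (l + 2)`;
* `fsMax k l * (simplexPow k * simplexPow l) = simplexPow (k + l)`, where `simplexPow m` is the
  value of `L^(2m)` for the `m`-simplex, so: if `L_A ≤ L_simplex` and `L_B ≤ L_simplex` then the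
  free sum satisfies `L ≤ L_simplex`, strictly when `A`, `B` are convex with the origin in their
  interiors.
-/

namespace Vale.Agent.Results.P254.FreeSums

open Vale.Agent.Lib.P254 Matrix

theorem result {ι κ : Type*} [Fintype ι] [DecidableEq ι] [Nonempty ι]
    [Fintype κ] [DecidableEq κ] [Nonempty κ]
    (A : Set (ι → ℝ)) (B : Set (κ → ℝ))
    (hA : IsCompact A) (hAs : StarConvex ℝ 0 A) (hAv : 0 < vol A)
    (hB : IsCompact B) (hBs : StarConvex ℝ 0 B) (hBv : 0 < vol B) :
    isoPow (freeSum A B) = fsConst (Fintype.card ι) (Fintype.card κ) *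
      (1 + (((Fintype.card ι : ℝ) * ((Fintype.card ι : ℝ) + 2)) *
          ((Fintype.card κ : ℝ) * ((Fintype.card κ : ℝ) + 2))
        - ((Fintype.card ι : ℝ) * ((Fintype.card ι : ℝ) + 2) - mah A) *
          ((Fintype.card κ : ℝ) * ((Fintype.card κ : ℝ) + 2) - mah B)) /
        (((Fintype.card ι : ℝ) + (Fintype.card κ : ℝ) + 1) * ((Fintype.card ι : ℝ) + 2) *
          ((Fintype.card κ : ℝ) + 2))) * (isoPow A * isoPow B) ∧
    mah A ≤ (Fintype.card ι : ℝ) * ((Fintype.card ι : ℝ) + 2) ∧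
    mah B ≤ (Fintype.card κ : ℝ) * ((Fintype.card κ : ℝ) + 2) ∧
    (Convex ℝ A → (0 : ι → ℝ) ∈ interior A →
      mah A < (Fintype.card ι : ℝ) * ((Fintype.card ι : ℝ) + 2)) ∧
    (Convex ℝ B → (0 : κ → ℝ) ∈ interior B →
      mah B < (Fintype.card κ : ℝ) * ((Fintype.card κ : ℝ) + 2)) ∧
    isoPow (freeSum A B) ≤
      fsMax (Fintype.card ι) (Fintype.card κ) * (isoPow A * isoPow B) ∧
    (isoPow (freeSum A B) = fsMax (Fintype.card ι) (Fintype.card κ) * (isoPow A * isoPow B) ↔
      mah A = (Fintype.card ι : ℝ) * ((Fintype.card ι : ℝ) + 2) ∨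
      mah B = (Fintype.card κ : ℝ) * ((Fintype.card κ : ℝ) + 2)) ∧
    (isoPow A ≤ simplexPow (Fintype.card ι) → isoPow B ≤ simplexPow (Fintype.card κ) →
      isoPow (freeSum A B) ≤ simplexPow (Fintype.card ι + Fintype.card κ) ∧
      (Convex ℝ A → Convex ℝ B → (0 : ι → ℝ) ∈ interior A → (0 : κ → ℝ) ∈ interior B →
        isoPow (freeSum A B) < simplexPow (Fintype.card ι + Fintype.card κ))) ∧
    fsMax (Fintype.card ι) (Fintype.card κ) *
        (simplexPow (Fintype.card ι) * simplexPow (Fintype.card κ)) =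
      simplexPow (Fintype.card ι + Fintype.card κ) ∧
    isoPow (Set.univ : Set (Empty → ℝ)) = simplexPow 0 ∧
    (∀ T : Set (ι → ℝ), MeasurableSet T → Bornology.IsBounded T → 0 < vol T →
      (isoPow (cone T) = simplexPow (Fintype.card ι + 1) ↔
        isoPow T = simplexPow (Fintype.card ι))) ∧
    (Convex ℝ A → Convex ℝ B → freeSum A B = convexHull ℝ
      ((fun a : ι → ℝ => (Sum.elim a (0 : κ → ℝ) : ι ⊕ κ → ℝ)) '' A ∪
        (fun b : κ → ℝ => (Sum.elim (0 : ι → ℝ) b : ι ⊕ κ → ℝ)) '' B)) ∧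
    IsCompact (freeSum A B) ∧ StarConvex ℝ (0 : ι ⊕ κ → ℝ) (freeSum A B) ∧
      0 < vol (freeSum A B) := by
  have hsA := star0_of_starConvex hAs
  have hsB := star0_of_starConvex hBs
  have hle := isoPow_freeSum_le hA hB hsA hsB hAv hBv
  refine ⟨isoPow_freeSum hA hB hsA hsB hAv hBv, mah_le hA hsA hAv, mah_le hB hsB hBv,
    fun hc h0 => mah_lt hA hc h0 hAv, fun hc h0 => mah_lt hB hc h0 hBv, hle.1, hle.2, ?_,
    fsMax_simplex _ _, isoPow_point, ?_, ?_, isCompact_freeSum hA hB,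
    starConvex_freeSum hsA hsB, fs_vol_pos hA hB hsA hsB hAv hBv⟩
  · intro h1 h2
    have h := isoPow_freeSum_simplex hA hB hsA hsB hAv hBv h1 h2
    exact ⟨h.1, fun hcA hcB h0A h0B =>
      h.2 (mah_lt hA hcA h0A hAv) (mah_lt hB hcB h0B hBv)⟩
  · intro T hT hTb hTv
    exact (cone_simplexPow hT hTb hTv).1
  · intro hcA hcB
    exact freeSum_eq_convexHull hcA hcB (nonempty_of_vol_pos hAv) (nonempty_of_vol_pos hBv)

end Vale.Agent.Results.P254.FreeSums
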