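import Vale.Agent.Lib.P254.Product

/-!
# P254 (strong isotropic constant conjecture): Cartesian products

`isoPow S = det (cov S) / (vol S)^2` is the `2n`-th power of the isotropic constant `L_S` of
`S ⊆ ℝ^n`; `simplexPow m` is its value for the `m`-simplex.  For index types `ι`, `κ` with
`k, l ≥ 1` elements and `prodSet A B = A × B ⊆ ℝ^(ι ⊕ κ)`:

* `isoPow (A × B) = isoPow A * isoPow B` for bounded sets of positive volume, and the product is
  again bounded of positive volume;
* `simplexPow k * simplexPow l < simplexPow (k + l)` for all `k, l ≥ 1`;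
* hence if `L_A ≤ L_simplex` and `L_B ≤ L_simplex`, then `L_(A × B) < L_simplex`;
* in particular this holds for the product of the convex hulls of two finite sets with at most
  `k + 2` and `l + 2` points (nonempty interiors), for example for products of two simplices.
-/

namespace Vale.Agent.Results.P254.Products

open Vale.Agent.Lib.P254

theorem result {ι κ : Type*} [Fintype ι] [DecidableEq ι] [Nonempty ι]
    [Fintype κ] [DecidableEq κ] [Nonempty κ] :
    (∀ p : Fin (Fintype.card (ι ⊕ κ) + 1) → (ι ⊕ κ → ℝ), AffineIndependent ℝ p →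
      isoPow (convexHull ℝ (Set.range p)) = simplexPow (Fintype.card ι + Fintype.card κ)) ∧
    (∀ (A : Set (ι → ℝ)) (B : Set (κ → ℝ)), Bornology.IsBounded A → Bornology.IsBounded B →
      0 < vol A → 0 < vol B →
      isoPow (prodSet A B) = isoPow A * isoPow B ∧
      Bornology.IsBounded (prodSet A B) ∧ 0 < vol (prodSet A B) ∧
      (isoPow A ≤ simplexPow (Fintype.card ι) → isoPow B ≤ simplexPow (Fintype.card κ) →
        isoPow (prodSet A B) < simplexPow (Fintype.card ι + Fintype.card κ))) ∧
    (∀ k l : ℕ, 1 ≤ k → 1 ≤ l → simplexPow k * simplexPow l < simplexPow (k + l)) ∧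
    (∀ (V : Finset (ι → ℝ)) (W : Finset (κ → ℝ)), V.card ≤ Fintype.card ι + 2 →
      W.card ≤ Fintype.card κ + 2 →
      (interior (convexHull ℝ (V : Set (ι → ℝ)))).Nonempty →
      (interior (convexHull ℝ (W : Set (κ → ℝ)))).Nonempty →
      isoPow (prodSet (convexHull ℝ (V : Set (ι → ℝ))) (convexHull ℝ (W : Set (κ → ℝ)))) <
        simplexPow (Fintype.card ι + Fintype.card κ)) := by
  refine ⟨fun p hp => ?_, fun A B hA hB hAv hBv => ⟨isoPow_prodSet hA hB hAv.ne' hBv.ne',
    isBounded_prodSet hA hB, by rw [prod_vol]; exact mul_pos hAv hBv,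
    fun h1 h2 => isoPow_prodSet_lt hA hB hAv hBv h1 h2⟩,
    fun k l hk hl => simplexPow_mul_lt k l hk hl,
    fun V W hV hW hVi hWi => isoPow_prodSet_few V W hV hW hVi hWi⟩
  have e : simplexPow (Fintype.card ι + Fintype.card κ) = simplexPow (Fintype.card (ι ⊕ κ)) := by
    rw [Fintype.card_sum]
  rw [e]
  exact isoPow_simplex p hp

end Vale.Agent.Results.P254.Products
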